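import Vale.Agent.P091E.Step
import Vale.Agent.P091.Defs

/-! P091, from divergence almost everywhere to divergence everywhere. -/

open MeasureTheory AddCircle Complex Finset Filter Topology
open scoped Real FourierTransform

namespace Vale.Agent.P091E

theorem glue {T : ℝ} [hT : Fact (0 < T)] {c : ℤ → ℂ}
    (hc : ∀ ε > 0, ∃ N : ℕ, ∀ k : ℤ, (N : ℤ) ≤ |k| → ‖c k‖ ≤ ε)
    (hz : ∀ B : Set (AddCircle T), IsClosed B →
    (∀ x ∈ B, BddAbove (Set.range fun N => ‖PS c N x‖)) → haarAddCircle B = 0) :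
    ∃ G : C(AddCircle T, ℂ), ‖G‖ ≤ 2 ∧
      ∀ x, ¬ BddAbove (Set.range fun N => ‖PS c N x + Lam N x G‖) := by
  choose FA Fg h1 h2 h3 h4 h5 using step hc hz
  obtain ⟨A, hA⟩ : ∃ A : ℕ → ℕ, ∀ j, A (j + 1) = FA (A j) j :=
    ⟨fun j => Nat.rec 0 (fun j a => FA a j) j, fun _ => rfl⟩
  have mo : Monotone A := monotone_nat_of_le_succ fun j => hA j ▸ h1 _ _
  have hs := (Summable.of_norm_bounded summable_geometric_two fun j => h2 (A j) j).hasSum
  refine ⟨_, hs.norm_le_of_bounded hasSum_geometric_two fun j => h2 (A j) j, ?_⟩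
  rintro x ⟨C, hC⟩
  have hC' := fun N => hC ⟨N, rfl⟩
  dsimp only at hC'
  generalize (∑' j, Fg (A j) j) = G at hs hC'
  have key : ∀ j N, A j ≤ N → N ≤ A (j + 1) → ‖Lam N x G - Lam N x (Fg (A j) j)‖ ≤ 2 :=
    fun j N n1 n2 => by
    refine (hasSum_ite_sub_hasSum ((Lam N x).hasSum hs) j).norm_le_of_bounded
      hasSum_geometric_two fun i => ?_
    split_ifs with e
    · rw [norm_zero]; positivity
    rcases lt_or_gt_of_ne e with k | k
    · rw [h4 _ _ N (hA i ▸ (mo k).trans n1)]
      exact ((Fg (A i) i).norm_coe_le_norm x).trans (h2 _ _)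
    · rw [h3 _ _ N (n2.trans (mo k)), norm_zero]; positivity
  obtain ⟨j, hj⟩ := exists_nat_gt (2 * C + 6 + |C|)
  obtain ⟨N, n1, n2, h⟩ := h5 (A j) j x
  rw [← hA] at n2 h
  have k1 := key j N n1 n2
  have c1 := hC' N
  have c0 := le_abs_self C
  have c0' := neg_abs_le C
  have c3 : 0 ≤ C := (norm_nonneg _).trans c1
  rcases h with ⟨q1, q2⟩ | ⟨q1, q2⟩
  · rw [q2, sub_zero] at k1
    have := norm_sub_le (PS c N x + Lam N x G) (Lam N x G)
    rw [add_sub_cancel_right] at this
    linarith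
  · have k2 := key j (A (j + 1)) (mo j.le_succ) le_rfl
    rw [h4 _ _ _ (hA j).ge] at k2
    have k3 : ‖Fg (A j) j x‖ ≤ 1 := ((Fg (A j) j).norm_coe_le_norm x).trans
      ((h2 _ _).trans (pow_le_one₀ (by norm_num) (by norm_num)))
    have c2 := hC' (A (j + 1))
    have e : Lam N x (Fg (A j) j) = (PS c N x + Lam N x G) - (PS c N x - PS c (A (j + 1)) x) -
        (PS c (A (j + 1)) x + Lam (A (j + 1)) x G) + (Lam (A (j + 1)) x G - Fg (A j) j x) +
        Fg (A j) j x - (Lam N x G - Lam N x (Fg (A j) j)) := by ring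
    rw [e] at q1
    have := q1.trans ((norm_sub_le _ _).trans (add_le_add ((norm_add_le _ _).trans (add_le_add
      ((norm_add_le _ _).trans (add_le_add ((norm_sub_le _ _).trans (add_le_add
      ((norm_sub_le _ _).trans (add_le_add c1 q2)) c2)) k2)) k3)) k1))
    linarith

open Vale.Agent.P091

theorem rl (f : ℝ → ℂ) : ∀ ε > 0, ∃ N : ℕ, ∀ k : ℤ, (N : ℤ) ≤ |k| → ‖coef f k‖ ≤ ε := by
  intro ε h0
  have p := Real.pi_pos
  have t := Real.tendsto_integral_exp_smul_cocompact ((Set.Ioc 0 (2 * π)).indicator f)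
  obtain ⟨K, k1, k2⟩ := mem_cocompact.1 (t.norm.eventually_le_const (by simpa using h0))
  obtain ⟨r, hr⟩ := k1.isBounded.exists_norm_le
  obtain ⟨N, hN⟩ := exists_nat_gt (r * (2 * π))
  refine ⟨N, fun k hk => ?_⟩
  have m : (k : ℝ) / (2 * π) ∈ Kᶜ := fun q => by
    have := hr _ q
    rw [Real.norm_eq_abs, abs_div, abs_of_pos (by positivity : 0 < 2 * π),
      div_le_iff₀ (by positivity)] at this
    have : (N : ℝ) ≤ |(k : ℝ)| := by exact_mod_cast hk
    linarith
  have := k2 m
  simp only [Set.mem_ofPred_eq] at this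
  have e : ∫ v : ℝ, 𝐞 (-(v * ((k : ℝ) / (2 * π)))) • (Set.Ioc 0 (2 * π)).indicator f v =
      ∫ x in (0 : ℝ)..(2 * π), f x * exp (-((k : ℂ) * (x : ℂ) * I)) := by
    rw [intervalIntegral.integral_of_le (by positivity), ← integral_indicator measurableSet_Ioc]
    refine integral_congr_ae (ae_of_all _ fun v => ?_)
    by_cases q : v ∈ Set.Ioc 0 (2 * π)
    · simp only [Set.indicator_of_mem q, Circle.smul_def, Real.fourierChar_apply, smul_eq_mul]
      rw [mul_comm]
      congr 2
      have : (π : ℂ) ≠ 0 := ofReal_ne_zero.2 p.ne'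
      push_cast
      field_simp
    · simp only [Set.indicator_of_notMem q, smul_zero]
  rw [e] at this
  rw [coef, norm_mul, norm_real, Real.norm_of_nonneg (by positivity)]
  refine (mul_le_mul_of_nonneg_left this (by positivity)).trans ?_
  rw [div_mul_eq_mul_div, one_mul, div_le_iff₀ (by positivity)]
  nlinarith [Real.pi_gt_three]

theorem upgrade {f : ℝ → ℂ} (hi : IntervalIntegrable f volume 0 (2 * π))
    (ha : ∀ᵐ x : ℝ, ¬ BddAbove (Set.range fun N => ‖S f N x‖)) :
    ∃ g : ℝ → ℂ, Continuous g ∧ Function.Periodic g (2 * π) ∧ (∀ x, ‖g x‖ ≤ 2) ∧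
      ∀ x : ℝ, ¬ BddAbove (Set.range fun N => ‖S (fun y => f y + g y) N x‖) := by
  have p := Real.pi_pos
  have : Fact (0 < 2 * π) := ⟨Real.two_pi_pos⟩
  have ef : ∀ (k : ℤ) (x : ℝ), fourier k (x : AddCircle (2 * π)) = exp (k * x * I) := fun k x => by
    rw [fourier_coe_apply]
    congr 1
    have : (π : ℂ) ≠ 0 := ofReal_ne_zero.2 p.ne'
    push_cast
    field_simp
  have es : ∀ (F : ℝ → ℂ) (N : ℕ) (x : ℝ), PS (coef F) N (x : AddCircle (2 * π)) = S F N x :=
    fun F N x => by simp only [PS, S, ef]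
  obtain ⟨G, g1, g2⟩ := glue (T := 2 * π) (rl f) fun B b1 b2 => by
    have m := (AddCircle.measurePreserving_mk (2 * π) 0).measure_preimage
      b1.measurableSet.nullMeasurableSet
    have z : (volume.restrict (Set.Ioc 0 (0 + 2 * π)))
        ((QuotientAddGroup.mk : ℝ → AddCircle (2 * π)) ⁻¹' B) = 0 := by
      refine measure_mono_null (fun x hx => ?_) (ae_restrict_of_ae ha)
      have := b2 _ hx
      simp only [es] at this
      exact fun q => q this
    rw [z, volume_eq_smul_haarAddCircle, Measure.smul_apply, smul_eq_mul, eq_comm,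
      mul_eq_zero] at m
    exact m.resolve_left (ENNReal.ofReal_pos.2 Real.two_pi_pos).ne'
  have gc : Continuous fun x : ℝ => G x := G.continuous.comp continuous_quotient_mk'
  refine ⟨fun x => G x, gc, fun x => by simp, fun x => (G.norm_coe_le_norm _).trans g1,
    fun x => ?_⟩
  have ec : ∀ k, coef (fun y => f y + G y) k = coef f k + fourierCoeff G k := fun k => by
    have ce : Continuous fun x : ℝ => exp (-((k : ℂ) * (x : ℂ) * I)) := by fun_prop
    rw [fourierCoeff_eq_intervalIntegral _ _ 0, coef, coef, zero_add, real_smul, ← mul_add]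
    simp only [add_mul]
    rw [intervalIntegral.integral_add (hi.mul_continuousOn ce.continuousOn)
      (Continuous.intervalIntegrable (u := fun x : ℝ => G x * exp (-((k : ℂ) * (x : ℂ) * I)))
        (gc.mul ce) _ _)]
    congr 3
    funext y
    rw [ef, smul_eq_mul, mul_comm]
    push_cast
    rw [neg_mul, neg_mul]
  convert g2 x using 4 with N
  rw [← es, Lam_apply]
  simp only [PS, ec, add_mul, sum_add_distrib]

end Vale.Agent.P091E
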