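import Mathlib

/-! P091, polynomials with bounded imaginary part that are large on a small compact set. -/

open MeasureTheory AddCircle Polynomial Complex

namespace Vale.Agent.P091E

variable {T : ℝ} [hT : Fact (0 < T)]

theorem cint (g : C(AddCircle T, ℂ)) : Integrable g haarAddCircle :=
  g.continuous.integrable_of_hasCompactSupport (HasCompactSupport.of_compactSpace _)

omit hT in
theorem four_pow (n : ℕ) (x : AddCircle T) : fourier 1 x ^ n = fourier n x := by
  induction n with
  | zero => simp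
  | succ n ih => rw [pow_succ, ih, Nat.cast_succ, fourier_add]

theorem int_four {n : ℤ} (h : n ≠ 0) : ∫ x : AddCircle T, fourier n x ∂haarAddCircle = 0 := by
  have := congrFun (fourierCoeff_fourier (T := T) n) 0
  rw [Pi.single_eq_of_ne h.symm, fourierCoeff] at this
  simpa only [neg_zero, fourier_zero, one_smul] using this

/-- an analytic polynomial with a given real part -/
theorem half {p : C(AddCircle T, ℂ)} (hp : p ∈ Submodule.span ℂ (Set.range (@fourier T))) (c : ℂ) :
    ∃ h : ℂ[X], (∀ x, (h.eval (fourier 1 x)).re = (c * p x).re) ∧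
      h.eval 0 = ((c * ∫ x, p x ∂haarAddCircle).re : ℝ) := by
  induction hp using Submodule.span_induction generalizing c with
  | mem p hp =>
    obtain ⟨n, rfl⟩ := hp
    rcases lt_trichotomy n 0 with k | rfl | k
    · obtain ⟨m, rfl⟩ : ∃ m : ℕ, n = -(m : ℤ) := ⟨n.natAbs, by omega⟩
      refine ⟨C (starRingEnd ℂ c) * X ^ m, fun x => ?_, ?_⟩
      · rw [eval_mul, eval_C, eval_pow, eval_X, four_pow, fourier_neg, ← conj_re, map_mul,
          conj_conj]
      · rw [int_four k.ne, eval_mul, eval_pow, eval_X, zero_pow (by omega)]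
        simp
    · exact ⟨C (c.re : ℂ), fun x => by simp, by simp⟩
    · obtain ⟨m, rfl⟩ : ∃ m : ℕ, n = m := ⟨n.natAbs, by omega⟩
      refine ⟨C c * X ^ m, fun x => ?_, ?_⟩
      · rw [eval_mul, eval_C, eval_pow, eval_X, four_pow]
      · rw [int_four k.ne', eval_mul, eval_pow, eval_X, zero_pow (by omega)]
        simp
  | zero => exact ⟨0, by simp, by simp⟩
  | add p q _ _ ip iq =>
    obtain ⟨h, h1, h2⟩ := ip c
    obtain ⟨k, k1, k2⟩ := iq c
    refine ⟨h + k, fun x => ?_, ?_⟩
    · rw [eval_add, add_re, h1, k1, ContinuousMap.add_apply, mul_add, add_re]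
    · simp only [ContinuousMap.add_apply]
      rw [eval_add, h2, k2, integral_add (cint p) (cint q), mul_add, add_re, ofReal_add]
  | smul a p _ ip =>
    obtain ⟨h, h1, h2⟩ := ip (c * a)
    refine ⟨h, fun x => ?_, ?_⟩
    · rw [h1, ContinuousMap.smul_apply, smul_eq_mul, mul_assoc]
    · simp only [ContinuousMap.smul_apply, smul_eq_mul]
      rw [h2, integral_const_mul, mul_assoc]

/-- positive real part, large on the set, small at the centre -/
theorem bump {B : Set (AddCircle T)} (hB : IsClosed B) {η : ℝ} (h0 : 0 < η)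
    (hm : haarAddCircle B < ENNReal.ofReal η) : ∃ (h : ℂ[X]) (m : ℝ), h.eval 0 = m ∧ η ≤ m ∧
      m ≤ 4 * η ∧ (∀ x : AddCircle T, η ≤ (h.eval (fourier 1 x)).re) ∧
      ∀ x ∈ B, 1 ≤ (h.eval (fourier 1 x)).re := by
  obtain ⟨U, u1, u2, u3⟩ := B.exists_isOpen_lt_of_lt _ hm
  obtain ⟨g, g0, g1, g2⟩ := exists_continuous_zero_one_of_isClosed u2.isClosed_compl hB
    (Set.disjoint_compl_left_iff_subset.2 u1)
  have gi : Integrable g haarAddCircle :=
    g.continuous.integrable_of_hasCompactSupport (HasCompactSupport.of_compactSpace _)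
  have gs : ∫ x, g x ∂haarAddCircle ≤ η := by
    calc _ ≤ ∫ x, U.indicator (fun _ => (1 : ℝ)) x ∂haarAddCircle := by
          refine integral_mono gi ((integrable_const _).indicator u2.measurableSet) fun x => ?_
          by_cases q : x ∈ U
          · rw [Set.indicator_of_mem q]; exact (g2 x).2
          · rw [Set.indicator_of_notMem q]; exact (g0 q).le
      _ ≤ η := by
          rw [integral_indicator_const _ u2.measurableSet, smul_eq_mul, mul_one]
          exact ENNReal.toReal_le_of_le_ofReal h0.le u3.le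
  have d : (⟨fun x => (g x : ℂ), by fun_prop⟩ : C(AddCircle T, ℂ)) ∈
      closure (Submodule.span ℂ (Set.range (@fourier T)) : Set C(AddCircle T, ℂ)) := by
    rw [← Submodule.topologicalClosure_coe, span_fourier_closure_eq_top]
    trivial
  obtain ⟨p, hp, dp⟩ := Metric.mem_closure_iff.1 d η h0
  have e : ∀ x, |g x - (p x).re| ≤ η := fun x => by
    have := (ContinuousMap.dist_apply_le_dist x).trans dp.le
    rw [dist_eq_norm] at this
    simpa using (abs_re_le_norm _).trans this
  obtain ⟨h, h1, h2⟩ := half hp 1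
  simp only [one_mul] at h1 h2
  have ri : Integrable (fun x => (p x).re) haarAddCircle := (cint p).re
  have r : (∫ x, p x ∂haarAddCircle).re = ∫ x, (p x).re ∂haarAddCircle :=
    (integral_re (cint p)).symm
  have a1 : ∫ x, (p x).re ∂haarAddCircle ≤ ∫ x, (g x + η) ∂haarAddCircle :=
    integral_mono ri (gi.add (integrable_const _)) fun x => by
      have := abs_le.1 (e x)
      dsimp only
      linarith
  have a2 : ∫ _ : AddCircle T, -η ∂haarAddCircle ≤ ∫ x, (p x).re ∂haarAddCircle :=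
    integral_mono (integrable_const _) ri fun x => by
      have := abs_le.1 (e x)
      have := (g2 x).1
      dsimp only
      linarith
  rw [integral_add gi (integrable_const _)] at a1
  simp only [integral_const, probReal_univ, one_smul] at a1 a2
  refine ⟨h + C ((2 * η : ℝ) : ℂ), (∫ x, p x ∂haarAddCircle).re + 2 * η, ?_, by linarith,
    by linarith, fun x => ?_, fun x hx => ?_⟩
  · rw [eval_add, eval_C, h2, ofReal_add]
  all_goals
    rw [eval_add, eval_C, add_re, h1, ofReal_re]
    have := abs_le.1 (e x)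
    have := (g2 x).1
  · linarith
  · have : g x = 1 := g1 hx
    linarith

theorem disc {w : ℂ} {η H R : ℝ} (hR : 0 < R) (h1 : η ≤ w.re) (h2 : ‖w‖ ≤ H)
    (h3 : H ^ 2 ≤ η * R) (h4 : η ≤ R) : ‖(R : ℂ)⁻¹ * w - 1‖ ≤ 1 - η / (2 * R) := by
  have a0 : η / (2 * R) ≤ 1 := (div_le_one (by positivity)).2 (by linarith)
  have e : (R : ℂ)⁻¹ * w - 1 = (R : ℂ)⁻¹ * (w - R) := by
    have : (R : ℂ) ≠ 0 := ofReal_ne_zero.2 hR.ne'
    field_simp
  rw [e, norm_mul, norm_inv, norm_real, Real.norm_of_nonneg hR.le, inv_mul_le_iff₀ hR]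
  refine abs_le_of_sq_le_sq' ?_ (by positivity) |>.2
  have q : ‖w‖ ^ 2 ≤ H ^ 2 := by gcongr
  rw [Complex.sq_norm, normSq_apply] at q ⊢
  have e2 : R * (1 - η / (2 * R)) = R - η / 2 := by field_simp
  rw [e2]
  simp only [sub_re, ofReal_re, sub_im, ofReal_im, sub_zero]
  nlinarith [mul_le_mul_of_nonneg_right h1 hR.le, sq_nonneg η]

/-- the polynomial of Kahane and Katznelson -/
theorem kk {B : Set (AddCircle T)} (hB : IsClosed B) {η : ℝ} (h0 : 0 < η)
    (hm : haarAddCircle B < ENNReal.ofReal η) : ∃ ψ : ℂ[X], ψ.coeff 0 = 0 ∧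
      (∀ x : AddCircle T, |(ψ.eval (fourier 1 x)).im| ≤ 10) ∧
      ∀ x ∈ B, -Real.log (4 * η) - 2 ≤ ‖ψ.eval (fourier 1 x)‖ := by
  obtain ⟨h, m, m0, m1, m2, p1, p2⟩ := bump hB h0 hm
  obtain ⟨H', hH⟩ := (isCompact_univ (X := AddCircle T)).exists_bound_of_continuousOn
    (f := fun x => h.eval (fourier 1 x)) (by fun_prop)
  obtain ⟨R, hR⟩ : ∃ R : ℝ, R = (max H' m) ^ 2 / η + η := ⟨_, rfl⟩
  have R1 : η ≤ R := by rw [hR]; exact le_add_of_nonneg_left (by positivity)
  have R0 : 0 < R := h0.trans_le R1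
  have R2 : (max H' m) ^ 2 ≤ η * R := by
    rw [hR, mul_add, mul_div_cancel₀ _ h0.ne']
    exact le_add_of_nonneg_right (by positivity)
  have ρ0 : 0 < η / (2 * R) := by positivity
  obtain ⟨n, hn⟩ := exists_nat_ge (η / (2 * R))⁻¹
  have ap : ∀ w : ℂ, η ≤ w.re → ‖w‖ ≤ max H' m →
      ‖log ((R : ℂ)⁻¹ * w) - logTaylor (n + 1) ((R : ℂ)⁻¹ * w - 1)‖ ≤ 1 := fun w w1 w2 => by
    have d := disc R0 w1 w2 R2 R1
    have d1 : ‖(R : ℂ)⁻¹ * w - 1‖ < 1 := by linarith
    have := norm_log_sub_logTaylor_le n d1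
    rw [add_sub_cancel] at this
    refine this.trans ((div_le_one (by positivity)).2 ?_)
    calc _ ≤ 1 * (η / (2 * R))⁻¹ := by
          gcongr
          · exact pow_le_one₀ (norm_nonneg _) d1.le
          · linarith
      _ ≤ _ := by linarith
  obtain ⟨L, hL⟩ : ∃ L : ℂ[X], ∀ z, L.eval z = logTaylor (n + 1) ((R : ℂ)⁻¹ * h.eval z - 1) :=
    ⟨∑ j ∈ Finset.range (n + 1), C ((-1 : ℂ) ^ (j + 1) / j) * (C (R : ℂ)⁻¹ * h - 1) ^ j, fun z => by
      simp only [eval_finsetSum, eval_mul, eval_C, eval_pow, eval_sub, eval_one, logTaylor]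
      exact Finset.sum_congr rfl fun j _ => by ring⟩
  have mp : 0 < m := h0.trans_le m1
  have a0 := ap m (by simpa using m1) (by
    rw [norm_real, Real.norm_of_nonneg mp.le]; exact le_max_right _ _)
  have a1 := fun x : AddCircle T =>
    ap _ (p1 x) ((hH x (Set.mem_univ _)).trans (le_max_left _ _))
  rw [← m0, ← hL] at a0
  simp only [← hL] at a1
  refine ⟨L - C (L.eval 0), by simp [coeff_zero_eq_eval_zero], fun x => ?_, fun x hx => ?_⟩
  · have b0 := abs_le.1 ((abs_im_le_norm _).trans a0)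
    have b1 := abs_le.1 ((abs_im_le_norm _).trans (a1 x))
    rw [sub_im, log_im] at b0 b1
    have c0 := abs_le.1 (abs_arg_le_pi ((R : ℂ)⁻¹ * h.eval 0))
    have c1 := abs_le.1 (abs_arg_le_pi ((R : ℂ)⁻¹ * h.eval (fourier 1 x)))
    rw [eval_sub, eval_C, sub_im, abs_le]
    constructor <;> linarith [Real.pi_le_four]
  · refine le_trans ?_ (re_le_norm _)
    have b0 := abs_le.1 ((abs_re_le_norm _).trans a0)
    have b1 := abs_le.1 ((abs_re_le_norm _).trans (a1 x))
    have n1 : 1 ≤ ‖h.eval (fourier 1 x)‖ := (p2 x hx).trans (re_le_norm _)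
    rw [sub_re, log_re, norm_mul, norm_inv, norm_real, Real.norm_of_nonneg R0.le,
      Real.log_mul (inv_pos.2 R0).ne'] at b0 b1
    · rw [m0, norm_real, Real.norm_of_nonneg mp.le] at b0
      have c0 := Real.log_le_log mp m2
      have c1 := Real.log_nonneg n1
      rw [eval_sub, eval_C, sub_re]
      linarith
    · linarith
    · rw [m0, norm_real, Real.norm_of_nonneg mp.le]; exact mp.ne'

end Vale.Agent.P091E
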