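import Vale.Agent.P091E.Glue
import Vale.Agent.P091.Atom
import Vale.Agent.P091.AvA
import Vale.Agent.P091.AvB
import Vale.Agent.P091.Avg
import Vale.Agent.P091.Bits
import Vale.Agent.P091.BitsA
import Vale.Agent.P091.Dir
import Vale.Agent.P091.FinA1
import Vale.Agent.P091.FinA2
import Vale.Agent.P091.FinB
import Vale.Agent.P091.FinB1
import Vale.Agent.P091.Good
import Vale.Agent.P091.GoodA
import Vale.Agent.P091.Gs
import Vale.Agent.P091.Harm
import Vale.Agent.P091.Low
import Vale.Agent.P091.LowA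
import Vale.Agent.P091.PhiB
import Vale.Agent.P091.Seq
import Vale.Agent.P091.Step
import Vale.Agent.P091.StepA
import Vale.Agent.P091.TransA
import Vale.Agent.P091.TransB
import Vale.Agent.P091.TriA
import Vale.Agent.P091.TriB
import Vale.Agent.P091.TriC

/-! P091, everywhere divergence. -/

open MeasureTheory Real Filter Topology

namespace Vale.Agent.P091E

open Vale.Agent.P091

theorem ae_div {φ : ℝ → ℝ} (h : Hyp φ) : ∃ f : ℝ → ℝ, Measurable f ∧ (∀ x, 0 ≤ f x) ∧
    Function.Periodic f (2 * π) ∧ IntervalIntegrable (fun x => (f x : ℂ)) volume 0 (2 * π) ∧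
    ∫⁻ x in Set.Ioc 0 (2 * π), ENNReal.ofReal (φ (f x)) < ⊤ ∧
    ∀ᵐ x : ℝ, ¬ BddAbove (Set.range fun N : ℕ => ‖S (fun x => (f x : ℂ)) N x‖) := by
  obtain ⟨P, η, hC⟩ := seq_pf (step_pf (atom_pf (good_pf (goodA_pf (bits_pf bitsA_pf) avg_pf
    harm_pf)) (low_pf dir_pf (lowA_pf harm_pf)) (avA_pf triA_pf triB_pf)
    (avB_pf triA_pf (triC_pf triB_pf)) gs_pf) stepA_pf scale_pf phiB_pf) φ h
  have hb : ∀ r, Base (P r) := fun r => (hC r).2.2.2.1
  obtain ⟨τ, hτ⟩ := trans_pf (transB_pf transA_pf) (fun r => (P r).G)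
    (fun r => (hb r).2.2.2.2.2.1) (fun r => (hb r).2.2.2.2.2.2.1) fun r => (hb r).2.2.2.2.2.2.2
  obtain ⟨a1, a2, a3, -⟩ := finA1_pf φ P η τ hC
  exact ⟨ff P τ, a1, fun _ => ENNReal.toReal_nonneg, a2, a3,
    finB_pf finB1_pf finB2_pf φ P η τ h hC, hτ.mono (finA2_pf finA1_pf φ P η τ hC)⟩

theorem hyp_two {φ : ℝ → ℝ} (h : Hyp φ) : Hyp fun u => φ (2 * u) := by
  obtain ⟨hm, h0, ht⟩ := h
  refine ⟨fun a ha b hb k => hm (Set.mem_Ici.2 (by linarith [Set.mem_Ici.1 ha]))
    (Set.mem_Ici.2 (by linarith [Set.mem_Ici.1 hb])) (by linarith),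
    fun u hu => h0 _ (by linarith), ?_⟩
  have t := (ht.comp (tendsto_id.const_mul_atTop two_pos)).const_mul 4
  rw [mul_zero] at t
  refine squeeze_zero' ?_ ?_ t
  · filter_upwards [eventually_ge_atTop 0] with u hu
    exact div_nonneg (h0 _ (by linarith)) (by positivity)
  · filter_upwards [eventually_ge_atTop 2] with u hu
    have l0 : 0 < Real.log u := Real.log_pos (by linarith)
    have l1 : 0 < Real.log (2 * u) := Real.log_pos (by linarith)
    have l2 : √(Real.log (2 * u)) ≤ 2 * √(Real.log u) := by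
      refine Real.sqrt_le_iff.2 ⟨by positivity, ?_⟩
      rw [mul_pow, Real.sq_sqrt l0.le, Real.log_mul two_ne_zero (by linarith)]
      linarith [Real.log_le_log two_pos hu]
    have u0 : 0 < u := by linarith
    have p0 := h0 (2 * u) (by linarith)
    simp only [Function.comp, id]
    rw [← mul_div_assoc, div_le_div_iff₀ (by positivity) (by positivity)]
    nlinarith [mul_le_mul_of_nonneg_left l2 (mul_nonneg p0 u0.le)]

theorem every {φ : ℝ → ℝ} (h : Hyp φ) : ∃ f : ℝ → ℂ, Measurable f ∧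
    Function.Periodic f (2 * π) ∧ IntervalIntegrable f volume 0 (2 * π) ∧
    ∫⁻ x in Set.Ioc 0 (2 * π), ENNReal.ofReal (φ ‖f x‖) < ⊤ ∧
    ∀ x : ℝ, ¬ BddAbove (Set.range fun N : ℕ => ‖S f N x‖) := by
  obtain ⟨f, f1, f0, f2, f3, f4, f5⟩ := ae_div (hyp_two h)
  obtain ⟨g, g1, g2, g3, g4⟩ := upgrade f3 f5
  refine ⟨fun y => f y + g y, (Complex.measurable_ofReal.comp f1).add g1.measurable,
    fun y => by simp only [f2 y, g2 y], f3.add (g1.intervalIntegrable _ _), ?_, g4⟩
  have b : ∀ x, ENNReal.ofReal (φ ‖(f x : ℂ) + g x‖) ≤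
      ENNReal.ofReal (φ (2 * f x)) + ENNReal.ofReal (φ 4) := fun x => by
    have n := (norm_add_le (f x : ℂ) (g x)).trans (add_le_add_right (g3 x) _)
    rw [Complex.norm_real, Real.norm_of_nonneg (f0 x)] at n
    rcases le_total (f x) 2 with k | k
    · exact (ENNReal.ofReal_le_ofReal (h.1 (Set.mem_Ici.2 (norm_nonneg _))
        (Set.mem_Ici.2 (by norm_num)) (by linarith))).trans le_add_self
    · exact (ENNReal.ofReal_le_ofReal (h.1 (Set.mem_Ici.2 (norm_nonneg _))
        (Set.mem_Ici.2 (by linarith)) (by linarith))).trans le_self_add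
  refine (lintegral_mono b).trans_lt ?_
  rw [lintegral_add_right _ measurable_const, lintegral_const]
  exact ENNReal.add_lt_top.2 ⟨f4, ENNReal.mul_lt_top ENNReal.ofReal_lt_top (by
    rw [Measure.restrict_apply_univ]; exact measure_Ioc_lt_top)⟩

end Vale.Agent.P091E
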