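import Vale.Agent.P091E.KK

/-! P091, from divergence almost everywhere to divergence everywhere: one step. -/

open MeasureTheory AddCircle Polynomial Complex Finset Filter Topology

namespace Vale.Agent.P091E

variable {T : ℝ}

/-- symmetric partial sums of a trigonometric series -/
noncomputable def PS (c : ℤ → ℂ) (N : ℕ) (x : AddCircle T) : ℂ :=
  ∑ k ∈ Icc (-(N : ℤ)) N, c k * fourier k x

theorem norm_four (k : ℤ) (x : AddCircle T) : ‖fourier k x‖ = 1 := by
  rw [fourier_apply, Circle.norm_coe]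

theorem PS_cont (c : ℤ → ℂ) (N : ℕ) : Continuous (PS (T := T) c N) := by
  unfold PS
  fun_prop

theorem PS_near {c : ℤ → ℂ} {ε : ℝ} {N D : ℕ} (h0 : 0 ≤ ε) (h : ∀ k : ℤ, (N : ℤ) ≤ |k| → ‖c k‖ ≤ ε)
    (x : AddCircle T) : ‖PS c N x - PS c (N + D) x‖ ≤ 2 * D * ε := by
  have s : Icc (-(N : ℤ)) N ⊆ Icc (-((N + D : ℕ) : ℤ)) ((N + D : ℕ) : ℤ) :=
    Icc_subset_Icc (by omega) (by omega)
  rw [norm_sub_rev, PS, PS, ← sum_sdiff_eq_sub s]
  refine (norm_sum_le _ _).trans ((sum_le_card_nsmul _ _ ε fun k hk => ?_).trans ?_)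
  · rw [norm_mul, norm_four, mul_one]
    rw [Finset.mem_sdiff, Finset.mem_Icc, Finset.mem_Icc] at hk
    exact h k (le_abs.2 (by omega))
  · rw [card_sdiff_of_subset s, Int.card_Icc, Int.card_Icc, nsmul_eq_mul]
    refine mul_le_mul_of_nonneg_right ?_ h0
    exact_mod_cast (by omega : (((N + D : ℕ) : ℤ) + 1 - -((N + D : ℕ) : ℤ)).toNat -
      ((N : ℤ) + 1 - -(N : ℤ)).toNat ≤ 2 * D)

variable [hT : Fact (0 < T)]

/-- partial sums of the Fourier series of a continuous function -/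
noncomputable def Lam (N : ℕ) (x : AddCircle T) : C(AddCircle T, ℂ) →L[ℂ] ℂ :=
  LinearMap.mkContinuous
    { toFun := fun g => PS (fourierCoeff g) N x
      map_add' := fun g h => by
        rw [ContinuousMap.coe_add, fourierCoeff.add (cint g) (cint h)]
        simp only [PS, Pi.add_apply, add_mul, sum_add_distrib]
      map_smul' := fun a g => by
        simp only [PS, ContinuousMap.coe_smul, fourierCoeff.const_smul, smul_eq_mul, mul_sum,
          mul_assoc, RingHom.id_apply] }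
    (Icc (-(N : ℤ)) N).card fun g => by
      change ‖PS (fourierCoeff g) N x‖ ≤ _
      unfold PS
      refine (norm_sum_le _ _).trans ((sum_le_card_nsmul _ _ ‖g‖ fun k _ => ?_).trans_eq
        (nsmul_eq_mul _ _))
      rw [norm_mul, norm_four, mul_one]
      refine (norm_integral_le_of_norm_le_const (C := ‖g‖) (ae_of_all _ fun t => ?_)).trans_eq
        (by simp)
      rw [norm_smul, norm_four, one_mul]
      exact g.norm_coe_le_norm t

theorem Lam_apply (N : ℕ) (x : AddCircle T) (g : C(AddCircle T, ℂ)) :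
    Lam N x g = PS (fourierCoeff g) N x := rfl

theorem Lam_four (N : ℕ) (x : AddCircle T) (m : ℤ) :
    Lam N x (fourier m) = if |m| ≤ N then fourier m x else 0 := by
  simp only [Lam_apply, PS, fourierCoeff_fourier, Pi.single_apply, ite_mul, one_mul, zero_mul,
    sum_ite_eq', mem_Icc, abs_le]

theorem small {c : ℤ → ℂ} (hz : ∀ B : Set (AddCircle T), IsClosed B →
    (∀ x ∈ B, BddAbove (Set.range fun N => ‖PS c N x‖)) → haarAddCircle B = 0) (A j : ℕ) {η : ℝ}
    (h0 : 0 < η) : ∃ n : ℕ, haarAddCircle {x : AddCircle T | ∀ N, A ≤ N → N ≤ A + n →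
      ‖PS c N x‖ ≤ j} < ENNReal.ofReal η := by
  obtain ⟨B, hB⟩ : ∃ B : ℕ → Set (AddCircle T), ∀ n, B n = {x | ∀ N, A ≤ N → N ≤ A + n →
      ‖PS c N x‖ ≤ j} := ⟨_, fun _ => rfl⟩
  have cl : ∀ n, IsClosed (B n) := fun n => by
    simp only [hB, Set.ofPred_forall]
    exact isClosed_iInter fun N => isClosed_iInter fun _ => isClosed_iInter fun _ =>
      isClosed_le (PS_cont c N).norm continuous_const
  have t := tendsto_measure_iInter_atTop (μ := haarAddCircle)
    (fun n => (cl n).measurableSet.nullMeasurableSet)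
    (fun a b h x hx => by
      rw [hB] at hx ⊢
      exact fun N h1 h2 => hx N h1 (by omega)) ⟨0, measure_ne_top _ _⟩
  rw [hz _ (isClosed_iInter cl) fun x hx => ?_] at t
  · obtain ⟨n, hn⟩ := (t.eventually_lt_const (ENNReal.ofReal_pos.2 h0)).exists
    exact ⟨n, hB n ▸ hn⟩
  · refine ⟨j + ∑ N ∈ range A, ‖PS c N x‖, ?_⟩
    rintro _ ⟨N, rfl⟩
    have s0 : 0 ≤ ∑ N ∈ range A, ‖PS c N x‖ := sum_nonneg fun _ _ => norm_nonneg _
    rcases le_or_gt A N with k | k
    · have := Set.mem_iInter.1 hx N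
      rw [hB] at this
      exact (this N k (by omega)).trans (by linarith)
    · exact (single_le_sum (f := fun N => ‖PS c N x‖) (fun _ _ => norm_nonneg _)
        (mem_range.2 k)).trans (le_add_of_nonneg_left (Nat.cast_nonneg _))

theorem step {c : ℤ → ℂ} (hc : ∀ ε > 0, ∃ N : ℕ, ∀ k : ℤ, (N : ℤ) ≤ |k| → ‖c k‖ ≤ ε)
    (hz : ∀ B : Set (AddCircle T), IsClosed B →
    (∀ x ∈ B, BddAbove (Set.range fun N => ‖PS c N x‖)) → haarAddCircle B = 0) (A j : ℕ) :
    ∃ (A' : ℕ) (g : C(AddCircle T, ℂ)), A ≤ A' ∧ ‖g‖ ≤ (1 / 2) ^ j ∧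
      (∀ N ≤ A, ∀ x, Lam N x g = 0) ∧ (∀ N ≥ A', ∀ x, Lam N x g = g x) ∧
      ∀ x, ∃ N, A ≤ N ∧ N ≤ A' ∧ ((j < ‖PS c N x‖ ∧ Lam N x g = 0) ∨
        (j ≤ ‖Lam N x g‖ ∧ ‖PS c N x - PS c A' x‖ ≤ 1)) := by
  obtain ⟨a, ha⟩ : ∃ a : ℝ, a = (1 / 2) ^ j / 20 := ⟨_, rfl⟩
  have a0 : 0 < a := by rw [ha]; positivity
  obtain ⟨n, hn⟩ := small hz A j (η := Real.exp (-(j / a + 2)) / 4) (by positivity)
  obtain ⟨ψ, p0, p1, p2⟩ := kk (by
    simp only [Set.ofPred_forall]
    exact isClosed_iInter fun N => isClosed_iInter fun _ => isClosed_iInter fun _ =>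
      isClosed_le (PS_cont c N).norm continuous_const) (by positivity) hn
  rw [mul_div_cancel₀ _ four_ne_zero, Real.log_exp] at p2
  obtain ⟨D, hD⟩ : ∃ D, D = ψ.natDegree := ⟨_, rfl⟩
  obtain ⟨N0, hN⟩ := hc (1 / (2 * D + 1)) (by positivity)
  obtain ⟨L, hL⟩ : ∃ L, L = A + n + D + 1 + N0 := ⟨_, rfl⟩
  obtain ⟨gp, hp⟩ : ∃ gp : C(AddCircle T, ℂ),
      gp = ∑ k ∈ range (D + 1), ψ.coeff k • fourier ((L : ℤ) + k) := ⟨_, rfl⟩
  obtain ⟨gm, hm⟩ : ∃ gm : C(AddCircle T, ℂ),
      gm = ∑ k ∈ range (D + 1), (starRingEnd ℂ (ψ.coeff k)) • fourier ((L : ℤ) + -k) := ⟨_, rfl⟩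
  have ep : ∀ x, gp x = fourier L x * ψ.eval (fourier 1 x) := fun x => by
    rw [hp, eval_eq_sum_range, ← hD, mul_sum, ContinuousMap.sum_apply]
    refine sum_congr rfl fun k _ => ?_
    rw [ContinuousMap.smul_apply, fourier_add, four_pow, smul_eq_mul]
    ring
  have em : ∀ x, gm x = fourier L x * starRingEnd ℂ (ψ.eval (fourier 1 x)) := fun x => by
    rw [hm, eval_eq_sum_range, ← hD, map_sum, mul_sum, ContinuousMap.sum_apply]
    refine sum_congr rfl fun k _ => ?_
    rw [ContinuousMap.smul_apply, fourier_add, four_pow, smul_eq_mul, fourier_neg, map_mul]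
    ring
  have z1 : ∀ N ≤ A + n, ∀ x, Lam N x ((a : ℂ) • (gp - gm)) = 0 := fun N h x => by
    rw [map_smul, map_sub, hp, hm, map_sum, map_sum, sum_eq_zero, sum_eq_zero, sub_zero, smul_zero]
    all_goals
      intro k hk
      have := mem_range.1 hk
      rw [map_smul, Lam_four, if_neg (not_le.2 (lt_abs.2 (Or.inl (by omega)))), smul_zero]
  have z2 : ∀ N ≥ L, ∀ x, Lam N x gm = gm x := fun N h x => by
    rw [hm, map_sum, ContinuousMap.sum_apply]
    refine sum_congr rfl fun k hk => ?_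
    have := mem_range.1 hk
    rw [map_smul, Lam_four, if_pos (abs_le.2 ⟨by omega, by omega⟩), ContinuousMap.smul_apply]
  refine ⟨L + D, (a : ℂ) • (gp - gm), by omega, ?_, fun N h => z1 N (by omega), fun N h x => ?_,
    fun x => ?_⟩
  · refine (ContinuousMap.norm_le _ (by positivity)).2 fun x => ?_
    rw [ContinuousMap.smul_apply, ContinuousMap.sub_apply, ep, em, ← mul_sub, sub_conj, norm_smul,
      norm_mul, norm_four, norm_mul, norm_I, norm_real, norm_real, Real.norm_of_nonneg a0.le,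
      Real.norm_eq_abs, abs_mul, abs_two]
    nlinarith [mul_le_mul_of_nonneg_left (p1 x) a0.le]
  · rw [map_smul, map_sub, z2 N (by omega), ContinuousMap.smul_apply, ContinuousMap.sub_apply, hp,
      map_sum, ContinuousMap.sum_apply]
    congr 2
    refine sum_congr rfl fun k hk => ?_
    have := mem_range.1 hk
    rw [map_smul, Lam_four, if_pos (abs_le.2 ⟨by omega, by omega⟩), ContinuousMap.smul_apply]
  · by_cases q : ∀ N, A ≤ N → N ≤ A + n → ‖PS c N x‖ ≤ j
    · refine ⟨L, by omega, by omega, Or.inr ⟨?_, ?_⟩⟩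
      · have z3 : Lam L x gp = 0 := by
          rw [hp, map_sum]
          refine sum_eq_zero fun k _ => ?_
          rcases Nat.eq_zero_or_pos k with rfl | k0
          · rw [p0, zero_smul, map_zero]
          · rw [map_smul, Lam_four, if_neg (not_le.2 (lt_abs.2 (Or.inl (by omega)))), smul_zero]
        rw [map_smul, map_sub, z3, z2 L le_rfl, zero_sub, norm_smul, norm_neg, em, norm_mul,
          norm_four, one_mul, norm_conj, norm_real, Real.norm_of_nonneg a0.le, ← div_le_iff₀' a0]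
        linarith [p2 x q]
      · refine (PS_near (by positivity) (fun k hk => hN k (by omega)) x).trans ?_
        rw [mul_one_div, div_le_one (by positivity)]
        linarith
    · push Not at q
      obtain ⟨N, q1, q2, q3⟩ := q
      exact ⟨N, q1, by omega, Or.inl ⟨q3, z1 N q2 x⟩⟩

end Vale.Agent.P091E
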